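import Vale.Agent.Lib.BangCombined

namespace Vale.Agent.Results.P243.Combined

open MeasureTheory

variable {E : Type*} [NormedAddCommGroup E] [InnerProductSpace ℝ E] [FiniteDimensional ℝ E]
  [MeasurableSpace E] [BorelSpace E]

/-- The orthogonal projection of a point `p` onto the plane `u^⊥` (the orthogonal complement of
the line spanned by `u`). -/
noncomputable def proj (u p : E) : (Submodule.span ℝ {u}).orthogonal :=
  (Submodule.span ℝ {u}).orthogonal.orthogonalProjectionOnto p

/-- The area (Lebesgue measure of the plane `u^⊥`) of a subset `B` of the plane `u^⊥`. -/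
noncomputable def area (u : E) (B : Set (Submodule.span ℝ {u}).orthogonal) : ENNReal :=
  volume B

/-- The area of the orthogonal projection of `K` onto the plane `u^⊥`. -/
noncomputable def projArea (K : Set E) (u : E) : ENNReal :=
  area u (proj u '' K)

/-- Four cases of Bang's half-area problem.  `K` is a convex body (compact, convex, nonempty
interior) in a three-dimensional Euclidean space `E`, covered by finitely many cylinders: the
`i`-th cylinder has axis direction the unit vector `u i` and an arbitrary base `B i ⊆ (u i)^⊥`,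
and is the set of points `p` with `proj (u i) p ∈ B i`.

1. If all axes are parallel to one plane (orthogonal to a unit vector `n`), then the smallest
   area of an orthogonal projection of `K` is at most twice the total area of the bases.
2. If the axis directions take at most two values, then the base areas, each divided by the
   area of the orthogonal projection of `K` along the axis of its cylinder, add up to at least
   one half.
3. The same conclusion if all axes are parallel to one plane (orthogonal to a unit vector `n`)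
   and the section of `K` at middle height with respect to `n` (through the point `o`, halfway
   between a lowest point `p₁` and a highest point `p₂`) is centrally symmetric about `o`.
4. The same conclusion if `K` is a tetrahedron (the convex hull of four points) and every axis
   is parallel to an edge of the tetrahedron. -/
theorem result (hE : Module.finrank ℝ E = 3) (K : Set E) (hK : Convex ℝ K) (hKc : IsCompact K)
    (hKi : (interior K).Nonempty) {ι : Type*} [Fintype ι] (u : ι → E) (hu : ∀ i, ‖u i‖ = 1)
    (B : ∀ i, Set (Submodule.span ℝ {u i}).orthogonal)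
    (hcov : ∀ p ∈ K, ∃ i, proj (u i) p ∈ B i) :
    ((∃ n : E, ‖n‖ = 1 ∧ ∀ i, inner ℝ (u i) n = 0) →
      (⨅ w : {w : E // ‖w‖ = 1}, projArea K w) ≤ 2 * ∑ i, area (u i) (B i))
    ∧ ((∃ a b : E, ∀ i, u i = a ∨ u i = b) →
      1 ≤ 2 * ∑ i, area (u i) (B i) / projArea K (u i))
    ∧ ((∃ n o p₁ p₂ : E, ‖n‖ = 1 ∧ (∀ i, inner ℝ (u i) n = 0) ∧ p₁ ∈ K ∧ p₂ ∈ K ∧
          (∀ p ∈ K, inner ℝ p₁ n ≤ inner ℝ p n ∧ inner ℝ p n ≤ inner ℝ p₂ n) ∧
          2 * inner ℝ o n = inner ℝ p₁ n + inner ℝ p₂ n ∧
          ∀ p ∈ K, inner ℝ p n = inner ℝ o n → o + o - p ∈ K) →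
      1 ≤ 2 * ∑ i, area (u i) (B i) / projArea K (u i))
    ∧ ((∃ v : Fin 4 → E, K = convexHull ℝ (Set.range v) ∧
          ∀ i, ∃ j k : Fin 4, ∃ r : ℝ, u i = r • (v j - v k)) →
      1 ≤ 2 * ∑ i, area (u i) (B i) / projArea K (u i)) := by
  refine ⟨?_, ?_, ?_, ?_⟩
  · rintro ⟨n, hn, hun⟩
    have h := Vale.Agent.Lib.BangCoplanarEuclid.euclid_coplanar hE K hK hKc n hn u hu hun B hcov
    refine le_trans ?_ h
    exact le_iInf (fun w => iInf_le (fun w : {w : E // ‖w‖ = 1} => projArea K w) ⟨w.1, w.2.1⟩)
  · rintro ⟨a, b, hab⟩
    exact Vale.Agent.Lib.BangCombined.two_dir_any hE K hK hKc hKi u hu a b hab B hcov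
  · rintro ⟨n, o, p₁, p₂, hn, hun, hp₁, hp₂, hext, hmid, hsym⟩
    exact Vale.Agent.Lib.BangCombined.mid hE K hK hKc hKi n hn o p₁ p₂ hp₁ hp₂ hext hmid hsym
      u hu hun B hcov
  · rintro ⟨v, hKv, hedge⟩
    exact Vale.Agent.Lib.BangCombined.tetra hE K hKi v hKv u hu hedge B hcov

end Vale.Agent.Results.P243.Combined
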