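import Vale.Agent.Lib.BangCoplanarEuclid

namespace Vale.Agent.Results.P243.CoplanarAxes

open MeasureTheory

variable {E : Type*} [NormedAddCommGroup E] [InnerProductSpace ℝ E] [FiniteDimensional ℝ E]
  [MeasurableSpace E] [BorelSpace E]

/-- The orthogonal projection of a point `p` onto the plane `u^⊥` (the orthogonal complement of
the line spanned by `u`). -/
noncomputable def proj (u p : E) : (Submodule.span ℝ {u}).orthogonal :=
  (Submodule.span ℝ {u}).orthogonal.orthogonalProjectionOnto p

/-- The area (Lebesgue measure of the plane `u^⊥`) of a subset `B` of the plane `u^⊥`. -/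
noncomputable def area (u : E) (B : Set (Submodule.span ℝ {u}).orthogonal) : ENNReal :=
  volume B

/-- The area of the orthogonal projection of `K` onto the plane `u^⊥`. -/
noncomputable def projArea (K : Set E) (u : E) : ENNReal :=
  area u (proj u '' K)

/-- Bang's half-area inequality for every finite covering of a compact convex set `K` in a
three-dimensional Euclidean space `E` by cylinders whose axes are all parallel to one plane:
the axis directions `u i` are unit vectors orthogonal to a fixed unit vector `n` (any number of
cylinders and of axis directions in that plane).  The cylinder with axis direction `u i` and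
base `B i ⊆ (u i)^⊥` is the set of points `p` with `proj (u i) p ∈ B i`; the bases are arbitrary
sets.  First conclusion: the infimum, over the unit vectors `v` orthogonal to `n`, of the area
of the orthogonal projection of `K` onto `v^⊥` is at most twice the total area of the bases.
Second conclusion: the same for the infimum over all unit vectors `v`, which is `A_min(K)`. -/
theorem result (hE : Module.finrank ℝ E = 3) (K : Set E) (hK : Convex ℝ K) (hKc : IsCompact K)
    (n : E) (hn : ‖n‖ = 1) {ι : Type*} [Fintype ι] (u : ι → E) (hu : ∀ i, ‖u i‖ = 1)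
    (hun : ∀ i, inner ℝ (u i) n = 0)
    (B : ∀ i, Set (Submodule.span ℝ {u i}).orthogonal)
    (hcov : ∀ p ∈ K, ∃ i, proj (u i) p ∈ B i) :
    (⨅ v : {v : E // ‖v‖ = 1 ∧ inner ℝ v n = 0}, projArea K v) ≤ 2 * ∑ i, area (u i) (B i)
    ∧ (⨅ v : {v : E // ‖v‖ = 1}, projArea K v) ≤ 2 * ∑ i, area (u i) (B i) := by
  have h := Vale.Agent.Lib.BangCoplanarEuclid.euclid_coplanar hE K hK hKc n hn u hu hun B hcov
  refine ⟨h, le_trans ?_ h⟩
  exact le_iInf (fun v => iInf_le (fun v : {v : E // ‖v‖ = 1} => projArea K v) ⟨v.1, v.2.1⟩)

end Vale.Agent.Results.P243.CoplanarAxes
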