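import Vale.Agent.Lib.BangEuclidAny

namespace Vale.Agent.Results.P243.EuclideanTwoAxes

open MeasureTheory

variable {E : Type*} [NormedAddCommGroup E] [InnerProductSpace ℝ E] [FiniteDimensional ℝ E]
  [MeasurableSpace E] [BorelSpace E]

/-- The orthogonal projection of a point `p` onto the plane `u^⊥` (the orthogonal complement of
the line spanned by `u`). -/
noncomputable def proj (u p : E) : (Submodule.span ℝ {u}).orthogonal :=
  (Submodule.span ℝ {u}).orthogonal.orthogonalProjectionOnto p

/-- The area (Lebesgue measure of the plane `u^⊥`) of a subset `B` of the plane `u^⊥`. -/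
noncomputable def area (u : E) (B : Set (Submodule.span ℝ {u}).orthogonal) : ENNReal :=
  volume B

/-- The area of the orthogonal projection of `K` onto the plane `u^⊥`. -/
noncomputable def projArea (K : Set E) (u : E) : ENNReal :=
  area u (proj u '' K)

/-- Bang's half-area inequality, and its relative form, for every finite covering of a compact
convex set `K` in a three-dimensional Euclidean space `E` by cylinders whose axes are parallel to
one of two given unit vectors `u₁`, `u₂` (no condition on the two vectors: they may also be equal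
or opposite, so every covering by two cylinders is included).  The cylinder with axis direction `u` and
base `B ⊆ u^⊥` is the set of points `p` with `proj u p ∈ B`; the bases `B₁ i ⊆ u₁^⊥`,
`B₂ j ⊆ u₂^⊥` are arbitrary sets.  First conclusion: with `P₁`, `P₂` the orthogonal projections of
`K` onto `u₁^⊥`, `u₂^⊥`, `|P₁| |P₂| ≤ 2 ((∑ |B₁ i|) |P₂| + (∑ |B₂ j|) |P₁|)`, that is
`∑ |B₁ i| / |P₁| + ∑ |B₂ j| / |P₂| ≥ 1 / 2`.  Second conclusion: the infimum over all unit
vectors `u` of the area of the orthogonal projection of `K` onto `u^⊥` is at most twice the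
total area of the bases. -/
theorem result (hE : Module.finrank ℝ E = 3) (K : Set E) (hK : Convex ℝ K) (hKc : IsCompact K)
    (u₁ u₂ : E) (hu₁ : ‖u₁‖ = 1) (hu₂ : ‖u₂‖ = 1)
    {ι₁ ι₂ : Type*} [Fintype ι₁] [Fintype ι₂]
    (B₁ : ι₁ → Set (Submodule.span ℝ {u₁}).orthogonal) (B₂ : ι₂ → Set (Submodule.span ℝ {u₂}).orthogonal)
    (hcov : ∀ p ∈ K, (∃ i, proj u₁ p ∈ B₁ i) ∨ (∃ j, proj u₂ p ∈ B₂ j)) :
    projArea K u₁ * projArea K u₂
      ≤ 2 * ((∑ i, area u₁ (B₁ i)) * projArea K u₂ + (∑ j, area u₂ (B₂ j)) * projArea K u₁)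
    ∧ (⨅ u : {u : E // ‖u‖ = 1}, projArea K u)
      ≤ 2 * ((∑ i, area u₁ (B₁ i)) + ∑ j, area u₂ (B₂ j)) :=
  Vale.Agent.Lib.BangEuclidAny.euclid_two_any hE K hK hKc u₁ u₂ hu₁ hu₂ B₁ B₂ hcov

end Vale.Agent.Results.P243.EuclideanTwoAxes
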