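import Vale.Agent.Lib.BallSection

namespace Vale.Agent.Results.P243.MiddleSection

open MeasureTheory

variable {E : Type*} [NormedAddCommGroup E] [InnerProductSpace ℝ E] [FiniteDimensional ℝ E]
  [MeasurableSpace E] [BorelSpace E]

/-- The orthogonal projection of a point `p` onto the plane `u^⊥` (the orthogonal complement of
the line spanned by `u`). -/
noncomputable def proj (u p : E) : (Submodule.span ℝ {u}).orthogonal :=
  (Submodule.span ℝ {u}).orthogonal.orthogonalProjectionOnto p

/-- The area (Lebesgue measure of the plane `u^⊥`) of a subset `B` of the plane `u^⊥`. -/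
noncomputable def area (u : E) (B : Set (Submodule.span ℝ {u}).orthogonal) : ENNReal :=
  volume B

/-- The area of the orthogonal projection of `K` onto the plane `u^⊥`. -/
noncomputable def projArea (K : Set E) (u : E) : ENNReal :=
  area u (proj u '' K)

/-- The directionwise relative half-area inequality for convex bodies whose section at middle
height is centrally symmetric, and cylinders whose axes are all parallel to one plane.  `K` is a
convex body (compact, convex, nonempty interior) in a three-dimensional Euclidean space `E` and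
`n` is a unit vector.  Heights are measured along `n`: `p₁` is a lowest and `p₂` a highest point
of `K`, and `o` is a point at the middle height.  The hypothesis on `K` is that its section by
the plane through `o` orthogonal to `n` is centrally symmetric about `o` (with `p` it contains
`o + o - p`).  The axis directions `u i` are unit vectors orthogonal to `n` (any number of
cylinders and of axis directions).  The cylinder with axis direction `u i` and base
`B i ⊆ (u i)^⊥` is the set of points `p` with `proj (u i) p ∈ B i`; the bases are arbitrary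
sets.  Conclusion: the base areas, each divided by the area of the orthogonal projection of `K`
along the axis of its cylinder, add up to at least one half. -/
theorem result (hE : Module.finrank ℝ E = 3) (K : Set E) (hK : Convex ℝ K) (hKc : IsCompact K)
    (hKi : (interior K).Nonempty) (n : E) (hn : ‖n‖ = 1) (o p₁ p₂ : E) (hp₁ : p₁ ∈ K)
    (hp₂ : p₂ ∈ K) (hlow : ∀ p ∈ K, inner ℝ p₁ n ≤ inner ℝ p n)
    (hhigh : ∀ p ∈ K, inner ℝ p n ≤ inner ℝ p₂ n)
    (hmid : 2 * inner ℝ o n = inner ℝ p₁ n + inner ℝ p₂ n)
    (hsym : ∀ p ∈ K, inner ℝ p n = inner ℝ o n → o + o - p ∈ K)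
    {ι : Type*} [Fintype ι] (u : ι → E) (hu : ∀ i, ‖u i‖ = 1)
    (hun : ∀ i, inner ℝ (u i) n = 0) (B : ∀ i, Set (Submodule.span ℝ {u i}).orthogonal)
    (hcov : ∀ p ∈ K, ∃ i, proj (u i) p ∈ B i) :
    1 ≤ 2 * ∑ i, area (u i) (B i) / projArea K (u i) := by
  refine Vale.Agent.Lib.BallSection.euclid_mid hE K hK hKc hKi n hn ?_ u hu hun B hcov
  intro a b hT
  have h1 : inner ℝ p₁ n ∈ Set.Icc a b := by
    rw [← hT]
    exact ⟨p₁, hp₁, rfl⟩
  have h2 : inner ℝ p₂ n ∈ Set.Icc a b := by
    rw [← hT]
    exact ⟨p₂, hp₂, rfl⟩
  have hab : a ≤ b := h1.1.trans h1.2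
  have ha : a ∈ (fun p : E => inner ℝ p n) '' K := by
    rw [hT]
    exact ⟨le_refl a, hab⟩
  have hb : b ∈ (fun p : E => inner ℝ p n) '' K := by
    rw [hT]
    exact ⟨hab, le_refl b⟩
  obtain ⟨q₁, hq₁, hq₁a⟩ := ha
  obtain ⟨q₂, hq₂, hq₂b⟩ := hb
  have e1 : a = inner ℝ p₁ n := by
    have h3 := hlow q₁ hq₁
    have h4 : inner ℝ q₁ n = a := hq₁a
    linarith [h1.1]
  have e2 : b = inner ℝ p₂ n := by
    have h3 := hhigh q₂ hq₂
    have h4 : inner ℝ q₂ n = b := hq₂b
    linarith [h2.2]
  have hmid' : (a + b) / 2 = inner ℝ o n := by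
    rw [e1, e2]
    linarith
  refine ⟨o, fun p hp => ⟨hsym p hp.1 (by rw [hp.2, hmid']), ?_⟩⟩
  rw [inner_sub_left, inner_add_left, hp.2, ← hmid']
  ring

end Vale.Agent.Results.P243.MiddleSection
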